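import Vale.Agent.P065.H154.Frame

/-!
# P065: the entropy of the fine box given piece and column (helper860)

`mend_abs` (abstract) and `mend_box`, `mend_Rt` (on FRAME): the input `hmend` of the bookkeeping
theorem.
-/

set_option autoImplicit false

noncomputable section

namespace Vale.Agent.P065.H860

open Finset Vale.Agent.P065.UB Vale.Agent.P065.Ent Vale.Agent.P065.H154

section abs

variable {Ω κ α β γ : Type*} [Fintype Ω] [Fintype κ]

/-- sums of pair probabilities -/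
lemma sum_Pr_pair_le {μ : Ω → ℝ} (hμ : IsProb μ) (X : Ω → α) (Y : Ω → β) (s : Finset α) (y : β) :
    ∑ x ∈ s, Pr μ (fun ω => (X ω, Y ω)) (x, y) ≤ Pr μ Y y := by
  classical
  unfold Pr
  rw [sum_comm]
  refine sum_le_sum fun ω _ => ?_
  by_cases h : Y ω = y
  · rw [if_pos h]
    refine le_trans (sum_le_sum (g := fun x => if x = X ω then μ ω else 0) ?_) ?_
    · intro x _
      by_cases hx : X ω = x
      · rw [if_pos (Prod.ext hx h), if_pos hx.symm]
      · rw [if_neg (fun h2 => hx (Prod.mk.inj h2).1), if_neg (fun h2 => hx h2.symm)]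
    · rw [sum_ite_eq']
      split_ifs
      · exact le_rfl
      · exact hμ.nonneg ω
  · rw [if_neg h]
    refine (sum_eq_zero fun x _ => if_neg fun h2 => h (Prod.mk.inj h2).2).le

/-- the label given piece and column: Gibbs with the kernel of `ν` -/
lemma Hc_lam_le {ν : Ω → ℝ} (hν : IsProb ν) {q : κ × Ω → ℝ} (hq : IsProb q)
    (W : Ω → β) (lam : Ω → γ) {b : ℝ} (hb : 0 < b)
    (hac : ∀ c ω, 0 < q (c, ω) → 0 < ν ω)
    (h2 : ∀ c ω, 0 < q (c, ω) → b * Pr ν W (W ω) ≤ Pr ν (fun ω => (W ω, lam ω)) (W ω, lam ω)) :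
    Hc q (fun p => lam p.2) (fun p => (W p.2, p.1)) ≤ Real.log (1 / b) := by
  classical
  set K : β × κ → γ → ℝ := fun y l =>
    Pr ν (fun ω => (lam ω, W ω)) (l, y.1) / Pr ν W y.1 with hK
  have hsw : ∀ ω, Pr ν (fun ω => (lam ω, W ω)) (lam ω, W ω) =
      Pr ν (fun ω => (W ω, lam ω)) (W ω, lam ω) := fun ω =>
    Pr_congr (det_swap lam W) (det_swap W lam) ω
  have hg := gibbs hq (fun p : κ × Ω => lam p.2) (fun p => (W p.2, p.1)) K
    (by
      rintro ⟨c, ω⟩ h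
      have h0 := hac c ω h
      exact div_pos (Pr_pos hν (fun ω => (lam ω, W ω)) h0) (Pr_pos hν W h0))
    (fun p x _ => div_nonneg (Pr_nonneg hν _ _) (Pr_nonneg hν _ _))
    (by
      intro p
      rw [hK]
      simp only
      rw [← sum_div]
      exact div_le_one_of_le₀ (sum_Pr_pair_le hν lam W _ _) (Pr_nonneg hν _ _))
  refine hg.trans ?_
  have h3 : ∀ p : κ × Ω, q p * (-Real.log (K (W p.2, p.1) (lam p.2))) ≤
      q p * Real.log (1 / b) := by
    rintro ⟨c, ω⟩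
    rcases (hq.nonneg (c, ω)).eq_or_lt with h0 | h0
    · rw [← h0, zero_mul, zero_mul]
    · apply mul_le_mul_of_nonneg_left _ h0.le
      have h4 := Pr_pos hν W (hac c ω h0)
      have h5 : b ≤ K (W ω, c) (lam ω) := by
        rw [hK]
        simp only
        rw [hsw ω, le_div_iff₀ h4]
        exact h2 c ω h0
      rw [one_div, Real.log_inv, neg_le_neg_iff]
      exact Real.log_le_log hb h5
  refine (sum_le_sum fun p _ => h3 p).trans (le_of_eq ?_)
  rw [← sum_mul, hq.sum, one_mul]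

/-- the fine box given label, piece and column: Gibbs with the kernel of `μ` -/
lemma Hc_box_le {μ : Ω → ℝ} (hμ : IsProb μ) {q : κ × Ω → ℝ} (hq : IsProb q)
    (V : Ω → β) (r : κ → Ω → α) (hr : ∀ c, Det (r c) V) {a : ℝ} (ha : 0 < a)
    (hac : ∀ c ω, 0 < q (c, ω) → 0 < μ ω)
    (h1 : ∀ c ω, 0 < q (c, ω) → a * Pr μ V (V ω) ≤ Pr μ (r c) (r c ω)) :
    Hc q (fun p => r p.1 p.2) (fun p => (V p.2, p.1)) ≤ Real.log (1 / a) := by
  classical
  set K : β × κ → α → ℝ := fun y x =>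
    Pr μ (fun ω => (r y.2 ω, V ω)) (x, y.1) / Pr μ V y.1 with hK
  have hsw : ∀ c ω, Pr μ (fun ω => (r c ω, V ω)) (r c ω, V ω) = Pr μ (r c) (r c ω) := fun c ω =>
    Pr_congr (det_fst (r c) V) ((Det.refl (r c)).pair (hr c)) ω
  have hg := gibbs hq (fun p : κ × Ω => r p.1 p.2) (fun p => (V p.2, p.1)) K
    (by
      rintro ⟨c, ω⟩ h
      have h0 := hac c ω h
      exact div_pos (Pr_pos hμ (fun ω => (r c ω, V ω)) h0) (Pr_pos hμ V h0))
    (fun p x _ => div_nonneg (Pr_nonneg hμ _ _) (Pr_nonneg hμ _ _))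
    (by
      intro p
      rw [hK]
      simp only
      rw [← sum_div]
      exact div_le_one_of_le₀ (sum_Pr_pair_le hμ (r p.1) V _ _) (Pr_nonneg hμ _ _))
  refine hg.trans ?_
  have h3 : ∀ p : κ × Ω, q p * (-Real.log (K (V p.2, p.1) (r p.1 p.2))) ≤
      q p * Real.log (1 / a) := by
    rintro ⟨c, ω⟩
    rcases (hq.nonneg (c, ω)).eq_or_lt with h0 | h0
    · rw [← h0, zero_mul, zero_mul]
    · apply mul_le_mul_of_nonneg_left _ h0.le
      have h4 := Pr_pos hμ V (hac c ω h0)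
      have h5 : a ≤ K (V ω, c) (r c ω) := by
        rw [hK]
        simp only
        rw [hsw c ω, le_div_iff₀ h4]
        exact h1 c ω h0
      rw [one_div, Real.log_inv, neg_le_neg_iff]
      exact Real.log_le_log ha h5
  refine (sum_le_sum fun p _ => h3 p).trans (le_of_eq ?_)
  rw [← sum_mul, hq.sum, one_mul]

/-- **the fine box given piece and column**: pointwise bounds for the label under `ν` and for the
box under `μ`, any law `q` on pairs (column, flag) -/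
theorem mend_abs {μ ν : Ω → ℝ} (hμ : IsProb μ) (hν : IsProb ν) {q : κ × Ω → ℝ} (hq : IsProb q)
    (W : Ω → β) (lam : Ω → γ) (r : κ → Ω → α) (hr : ∀ c, Det (r c) (fun ω => (W ω, lam ω)))
    {a b : ℝ} (ha : 0 < a) (hb : 0 < b) (hac : ∀ c ω, 0 < q (c, ω) → 0 < μ ω)
    (hac' : ∀ c ω, 0 < q (c, ω) → 0 < ν ω)
    (h1 : ∀ c ω, 0 < q (c, ω) →
      a * Pr μ (fun ω => (W ω, lam ω)) (W ω, lam ω) ≤ Pr μ (r c) (r c ω))
    (h2 : ∀ c ω, 0 < q (c, ω) → b * Pr ν W (W ω) ≤ Pr ν (fun ω => (W ω, lam ω)) (W ω, lam ω)) :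
    Hc q (fun p => r p.1 p.2) (fun p => (W p.2, p.1)) ≤ Real.log (1 / a) + Real.log (1 / b) := by
  have e1 := Hc_lam_le hν hq W lam hb hac' h2
  have e2 := Hc_box_le hμ hq (fun ω => (W ω, lam ω)) r hr ha hac h1
  have e3 : Hc q (fun p : κ × Ω => r p.1 p.2) (fun p => (W p.2, p.1)) ≤
      Hc q (fun p : κ × Ω => (r p.1 p.2, lam p.2)) (fun p => (W p.2, p.1)) :=
    Hc_mono_left hq (det_fst _ _)
  have e4 := Hc_pair q (fun p : κ × Ω => r p.1 p.2) (fun p => lam p.2) (fun p => (W p.2, p.1))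
  have e5 : Hc q (fun p : κ × Ω => r p.1 p.2) (fun p => (lam p.2, (W p.2, p.1))) =
      Hc q (fun p : κ × Ω => r p.1 p.2) (fun p => ((W p.2, lam p.2), p.1)) := by
    refine Hc_congr (Det.refl _) (Det.refl _) ?_ ?_
    · rintro p p' h
      simp only [Prod.mk.injEq] at h ⊢
      exact ⟨⟨h.2.1, h.1⟩, h.2.2⟩
    · rintro p p' h
      simp only [Prod.mk.injEq] at h ⊢
      exact ⟨h.1.2, h.1.1, h.2⟩
  linarith

end abs

section frame

variable {Ω : Type*} [Fintype Ω] (F : Fr Ω) (ln : Ω → Pt) (p : Prm) {Lab : Type*}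
  (lam : Ω → Lab)

/-- the fine box given piece and column, any law `q` -/
theorem mend_box {μ ν : Ω → ℝ} (hμ : IsProb μ) (hν : IsProb ν) {q : p.Col × Ω → ℝ}
    (hq : IsProb q) {a b : ℝ} (ha : 0 < a) (hb : 0 < b)
    (hac : ∀ c ω, 0 < q (c, ω) → 0 < μ ω) (hac' : ∀ c ω, 0 < q (c, ω) → 0 < ν ω)
    (h1 : ∀ c ω, 0 < q (c, ω) →
      a * Pr μ (fun ω => (F.P.W F.n ω, lam ω)) (F.P.W F.n ω, lam ω) ≤
        Pr μ (rho F ln p lam c) (rho F ln p lam c ω))
    (h2 : ∀ c ω, 0 < q (c, ω) → b * Pr ν (F.P.W F.n) (F.P.W F.n ω) ≤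
      Pr ν (fun ω => (F.P.W F.n ω, lam ω)) (F.P.W F.n ω, lam ω)) :
    Hc q (rb F ln p lam) (fun p => (F.P.W F.n p.2, p.1)) ≤
      Real.log (1 / a) + Real.log (1 / b) := by
  have e := mend_abs hμ hν hq (F.P.W F.n) lam (rho F ln p lam)
    (fun c ω ω' h => by
      unfold rho at h
      simp only [Prod.mk.injEq] at h ⊢
      exact h.1) ha hb hac hac' h1 h2
  refine le_trans (le_of_eq ?_) e
  have e1 := Hc_pair q (fun x : p.Col × Ω => rho F ln p lam x.1 x.2) (fun x => x.1)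
    (fun x => (F.P.W F.n x.2, x.1))
  have e2 : Hc q (fun x : p.Col × Ω => x.1) (fun x => (F.P.W F.n x.2, x.1)) = 0 :=
    Hc_eq_zero (det_snd _ _)
  have e3 : Hc q (fun x : p.Col × Ω => rho F ln p lam x.1 x.2)
      (fun x => (x.1, (F.P.W F.n x.2, x.1))) =
      Hc q (fun x : p.Col × Ω => rho F ln p lam x.1 x.2) (fun x => (F.P.W F.n x.2, x.1)) :=
    Hc_congr (Det.refl _) (Det.refl _) (det_snd _ _) ((det_snd _ _).pair (Det.refl _))
  have e4 : Hc q (rb F ln p lam) (fun x => (F.P.W F.n x.2, x.1)) =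
      Hc q (fun x : p.Col × Ω => (rho F ln p lam x.1 x.2, x.1))
        (fun x => (F.P.W F.n x.2, x.1)) :=
    Hc_congr (det_swap _ _) (det_swap _ _) (Det.refl _) (Det.refl _)
  rw [e4, e1, e2, e3, zero_add]

/-- **the input `hmend`** of the bookkeeping theorem, any law `q`: the last level `T` is at least
the finest scale, pieces with the same centre are equal -/
theorem mend_Rt {μ ν : Ω → ℝ} (hμ : IsProb μ) (hν : IsProb ν) {q : p.Col × Ω → ℝ}
    (hq : IsProb q) {a b : ℝ} (ha : 0 < a) (hb : 0 < b)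
    (hac : ∀ c ω, 0 < q (c, ω) → 0 < μ ω) (hac' : ∀ c ω, 0 < q (c, ω) → 0 < ν ω)
    (h1 : ∀ c ω, 0 < q (c, ω) →
      a * Pr μ (fun ω => (F.P.W F.n ω, lam ω)) (F.P.W F.n ω, lam ω) ≤
        Pr μ (rho F ln p lam c) (rho F ln p lam c ω))
    (h2 : ∀ c ω, 0 < q (c, ω) → b * Pr ν (F.P.W F.n) (F.P.W F.n ω) ≤
      Pr ν (fun ω => (F.P.W F.n ω, lam ω)) (F.P.W F.n ω, lam ω))
    (hWx : ∀ ω ω', F.P.x ω = F.P.x ω' → F.P.W F.n ω = F.P.W F.n ω') (u : ℝ) (γ : ℕ) {T t : ℕ}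
    (hT : F.Tm ≤ T) :
    Hc q (Rt F ln p u γ t) (fun x => (F.D u T x.2, x.1)) ≤
      Real.log (1 / a) + Real.log (1 / b) := by
  have e := mend_box F ln p lam hμ hν hq ha hb hac hac' h1 h2
  refine le_trans (Hc_mono_left hq (rb_Rt (lam := lam) u γ t)) (le_trans ?_ e)
  refine Hc_anti hq _ ?_
  rintro ⟨c, ω⟩ ⟨c', ω'⟩ h
  simp only [Prod.mk.injEq] at h ⊢
  exact ⟨hWx _ _ (F.x_eq_of_le h.1 ((F.T'_le ω).trans hT)), h.2⟩

end frame

end Vale.Agent.P065.H860
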