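import Mathlib.Analysis.SpecialFunctions.Log.Basic
import Mathlib.Analysis.SpecialFunctions.Pow.Asymptotics
import Mathlib.Analysis.Complex.ExponentialBounds

/-!
# P065: numbers for the plug of case (II) (helper860)
-/

set_option autoImplicit false

open Real Filter

namespace Vale.Agent.P065.H860

/-- `1 + log g` is small with respect to `g` -/
theorem one_add_log_le {c : ℝ} (hc : 0 < c) :
    ∀ᶠ g : ℕ in atTop, c * (1 + log (g : ℝ)) ≤ g := by
  have h1 : Tendsto (fun x : ℝ => log x / x) atTop (nhds 0) := by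
    have := isLittleO_log_id_atTop.tendsto_div_nhds_zero
    exact this
  have h2 := h1.comp tendsto_natCast_atTop_atTop (α := ℕ)
  have h3 : ∀ᶠ g : ℕ in atTop, log (g : ℝ) / g < 1 / (2 * c) :=
    h2.eventually (gt_mem_nhds (by positivity))
  filter_upwards [h3, eventually_ge_atTop ⌈2 * c⌉₊, eventually_ge_atTop 1] with g h4 h5 h6
  have hg : (0 : ℝ) < g := by exact_mod_cast h6
  rw [div_lt_iff₀ hg] at h4
  have h7 : 2 * c ≤ g := (Nat.le_ceil _).trans (by exact_mod_cast h5)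
  have h8 : c * log (g : ℝ) ≤ g / 2 := by
    have := mul_le_mul_of_nonneg_left h4.le hc.le
    calc c * log (g : ℝ) ≤ c * (1 / (2 * c) * g) := this
      _ = g / 2 := by field_simp
  linarith

/-- the numbers of the plug: `P` the constant of the loss, `E₀` the exponent of the masses, `A` the
exponent of the coarse shares -/
theorem plug_num {P E₀ Λ₀ cν : ℝ} (hP : 0 < P) (hE : 0 < E₀) (hΛ : 0 < Λ₀) :
    ∃ A Λ : ℕ, 1 ≤ A ∧ cν ≤ Λ ∧ ∀ᶠ g : ℕ in atTop, 3 ≤ g ∧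
      g / (Λ * (1 + log (g : ℝ))) + P * (E₀ * g / log (1 / (1 / (g : ℝ)) ^ A) + 1) ≤
        g / (Λ₀ * (1 + log (g : ℝ))) ∧
      exp (-(Λ * g)) ≤ (1 / (g : ℝ)) ^ A * exp (-(E₀ * g)) ∧
      P * (E₀ * g / (1 / (g : ℝ)) ^ A + 1) + 1 ≤ (g : ℝ) ^ Λ ∧
      (1 / (g : ℝ)) ^ A < 1 := by
  obtain ⟨A, hA⟩ := exists_nat_ge (16 * Λ₀ * P * E₀ + 1)
  have hA1 : 1 ≤ A := by
    have : (1 : ℝ) ≤ A := le_trans (by nlinarith [mul_pos (mul_pos hΛ hP) hE]) hA
    exact_mod_cast this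
  set Λ : ℕ := ⌈cν⌉₊ + ⌈2 * Λ₀⌉₊ + ⌈E₀⌉₊ + A + 2 with hΛd
  have c1 : cν ≤ Λ := (Nat.le_ceil _).trans (by
    rw [hΛd]
    push_cast
    have h1 : (0 : ℝ) ≤ ⌈2 * Λ₀⌉₊ := Nat.cast_nonneg _
    have h2 : (0 : ℝ) ≤ ⌈E₀⌉₊ := Nat.cast_nonneg _
    have h3 : (0 : ℝ) ≤ A := Nat.cast_nonneg _
    linarith)
  have c2 : 2 * Λ₀ ≤ Λ := (Nat.le_ceil _).trans (by
    rw [hΛd]
    push_cast
    have h1 : (0 : ℝ) ≤ ⌈cν⌉₊ := Nat.cast_nonneg _
    have h2 : (0 : ℝ) ≤ ⌈E₀⌉₊ := Nat.cast_nonneg _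
    have h3 : (0 : ℝ) ≤ A := Nat.cast_nonneg _
    linarith)
  have c3 : A + E₀ ≤ Λ := by
    have h0 := Nat.le_ceil E₀
    rw [hΛd]
    push_cast
    have h1 : (0 : ℝ) ≤ ⌈cν⌉₊ := Nat.cast_nonneg _
    have h2 : (0 : ℝ) ≤ ⌈2 * Λ₀⌉₊ := Nat.cast_nonneg _
    linarith
  have c4 : A + 2 ≤ Λ := by omega
  refine ⟨A, Λ, hA1, c1, ?_⟩
  filter_upwards [one_add_log_le (c := 4 * Λ₀ * P) (by positivity), eventually_ge_atTop 3,
    eventually_ge_atTop ⌈P * (E₀ + 1) + 1⌉₊] with g h1 h3 h4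
  have hg1 : (3 : ℝ) ≤ g := by exact_mod_cast h3
  have hg0 : (0 : ℝ) < g := by linarith
  have hlog1 : 1 ≤ log (g : ℝ) := by
    rw [Real.le_log_iff_exp_le hg0]
    have := Real.exp_one_lt_d9
    linarith
  have hA0 : (0 : ℝ) < A := by exact_mod_cast hA1
  have hpow : (0 : ℝ) < (1 / (g : ℝ)) ^ A := by positivity
  have hlogA : log (1 / (1 / (g : ℝ)) ^ A) = A * log g := by
    rw [one_div, Real.log_inv, Real.log_pow, one_div, Real.log_inv]
    ring
  refine ⟨h3, ?_, ?_, ?_, ?_⟩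
  · rw [hlogA]
    have hL : (0 : ℝ) < 1 + log (g : ℝ) := by linarith
    set X : ℝ := g / (Λ₀ * (1 + log (g : ℝ))) with hX
    have hX0 : 0 < X := by positivity
    have d1 : g / (Λ * (1 + log (g : ℝ))) ≤ X / 2 := by
      rw [hX, div_div]
      apply div_le_div_of_nonneg_left hg0.le (by positivity)
      nlinarith
    have d2 : P * (E₀ * g / (A * log g)) ≤ X / 8 := by
      have e1 : P * (E₀ * g / (A * log g)) = (P * E₀ / A) * (g / log g) := by
        field_simp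
      have e2 : P * E₀ / A ≤ 1 / (16 * Λ₀) := by
        rw [div_le_div_iff₀ hA0 (by positivity)]
        nlinarith
      have e3 : 0 ≤ (g : ℝ) / log g := by positivity
      rw [e1]
      refine (mul_le_mul_of_nonneg_right e2 e3).trans ?_
      rw [hX, div_div, ← mul_div_mul_comm, one_mul]
      apply div_le_div_of_nonneg_left hg0.le (by positivity)
      nlinarith
    have d3 : P ≤ X / 4 := by
      rw [hX, div_div, le_div_iff₀ (by positivity)]
      calc P * (Λ₀ * (1 + log (g : ℝ)) * 4) = 4 * Λ₀ * P * (1 + log (g : ℝ)) := by ring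
        _ ≤ g := h1
    calc g / (Λ * (1 + log (g : ℝ))) + P * (E₀ * g / (A * log g) + 1) =
          g / (Λ * (1 + log (g : ℝ))) + P * (E₀ * g / (A * log g)) + P := by ring
      _ ≤ X / 2 + X / 8 + X / 4 := by linarith
      _ ≤ X := by linarith
  · have e1 : (1 / (g : ℝ)) ^ A = exp (-(A * log g)) := by
      rw [one_div, inv_pow, Real.exp_neg]
      congr 1
      rw [← Real.log_pow, Real.exp_log (by positivity)]
    rw [e1, ← Real.exp_add]
    apply Real.exp_le_exp.2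
    have h5 : log (g : ℝ) ≤ g := (Real.log_le_sub_one_of_pos hg0).trans (by linarith)
    have h6 : (A : ℝ) * log g ≤ A * g := mul_le_mul_of_nonneg_left h5 hA0.le
    have h7 : (A + E₀) * g ≤ Λ * g := mul_le_mul_of_nonneg_right c3 hg0.le
    linarith
  · have e1 : E₀ * g / (1 / (g : ℝ)) ^ A = E₀ * g ^ (A + 1) := by
      rw [one_div, inv_pow, div_inv_eq_mul, pow_succ]
      ring
    have h5 : P * (E₀ + 1) + 1 ≤ g := (Nat.le_ceil _).trans (by exact_mod_cast h4)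
    have h6 : (1 : ℝ) ≤ g ^ (A + 1) := one_le_pow₀ (by linarith)
    rw [e1]
    calc P * (E₀ * g ^ (A + 1) + 1) + 1 ≤ (P * (E₀ + 1) + 1) * g ^ (A + 1) := by nlinarith
      _ ≤ g * g ^ (A + 1) := mul_le_mul_of_nonneg_right h5 (by positivity)
      _ = (g : ℝ) ^ (A + 2) := by ring
      _ ≤ (g : ℝ) ^ Λ := pow_le_pow_right₀ (by linarith) c4
  · apply pow_lt_one₀ (by positivity) _ (by omega)
    rw [div_lt_one hg0]
    linarith

end Vale.Agent.P065.H860
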