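import Vale.Agent.P065.H860.ColPerF
import Vale.Agent.P065.H860.PlugNum
import Vale.Agent.P065.H859.NGAsy
import Vale.Agent.P065.H649.CoarseFr
import Vale.Agent.P065.H806.Sys

/-!
# P065: the plug of case (II) (helper860)

From a typical window `L : Loc` and the lower bound for the total weight of the columns (case (II)
of ColSel) to the system `Sys` of case (II).
-/

set_option autoImplicit false

noncomputable section

namespace Vale.Agent.P065.H860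

open Finset Real Filter Vale.Agent.P065.UB Vale.Agent.P065.Ent Vale.Agent.P065.H725
  Vale.Agent.P065.H154 Vale.Agent.P065.H859

/-- the surprise of a label and its mass -/
theorem lab_of_lsur {a b s : ℝ} (ha : 0 < a) (hb : 0 < b) (h : -log (a / b) ≤ s) :
    exp (-s) * b ≤ a := by
  have h1 : exp (-s) ≤ a / b := by
    rw [← Real.le_log_iff_exp_le (by positivity)]
    linarith
  rwa [le_div_iff₀ hb] at h1

/-- the exponent of the masses -/
def E0 (e δ : ℝ) (C : ℕ) : ℝ := e + 2 * (C + 1) * log 2 + log (1 / δ)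

theorem E0_pos {e δ : ℝ} (he : 0 < e) (hδ : 0 < δ) (hδ1 : δ ≤ 1) (C : ℕ) : 0 < E0 e δ C := by
  unfold E0
  have h1 : 0 ≤ log (1 / δ) := Real.log_nonneg (by
    rw [le_div_iff₀ hδ]
    linarith)
  have h2 : 0 < log 2 := Real.log_pos (by norm_num)
  positivity

theorem exp_E0_le {e δ : ℝ} (hδ : 0 < δ) (hδ1 : δ ≤ 1) (C : ℕ) {g : ℕ} (hg : 1 ≤ g) :
    exp (-(E0 e δ C * g)) ≤ exp (-(e * g)) * (δ * (1 / 2) ^ (2 * (C + 1) * g)) := by
  have hg1 : (1 : ℝ) ≤ g := by exact_mod_cast hg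
  have h1 : 0 ≤ log (1 / δ) := Real.log_nonneg (by
    rw [le_div_iff₀ hδ]
    linarith)
  have e1 : δ = exp (-log (1 / δ)) := by
    rw [one_div, Real.log_inv, neg_neg, Real.exp_log hδ]
  have e2 : ((1 : ℝ) / 2) ^ (2 * (C + 1) * g) = exp (-(2 * (C + 1) * log 2 * g)) := by
    rw [one_div, inv_pow, Real.exp_neg]
    congr 1
    have : 2 * ((C : ℝ) + 1) * log 2 * g = ((2 * (C + 1) * g : ℕ) : ℝ) * log 2 := by
      push_cast
      ring
    rw [this, Real.exp_nat_mul, Real.exp_log (by norm_num)]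
  rw [e2]
  conv_rhs => rw [e1]
  rw [← Real.exp_add, ← Real.exp_add]
  apply Real.exp_le_exp.2
  unfold E0
  nlinarith

/-- **the plug of case (II)** -/
theorem sys_of_II {B₀ C PP q : ℕ} {c₁ γ e δ Λ₀ : ℝ} (hB₀ : 2 ≤ B₀) (hC : (B₀ : ℝ) ≤ 2 ^ C)
    (hc₁ : 0 < c₁) (hγ0 : 0 ≤ γ) (hγ1 : γ < 1) (he : 0 < e) (hδ : 0 < δ) (hδ1 : δ ≤ 1)
    (hΛ₀ : 0 < Λ₀) (hPP : 9 + q ≤ PP) (hq3 : q ≤ 3) :
    ∃ Λ : ℕ, ∀ kN : ℕ, ∃ g₁ : ℕ, ∀ g : ℕ, g₁ ≤ g →
      ∀ {c₂ ρ ε₂ ε₃ b : ℝ} {K₁ n : ℕ}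
        (L : Loc B₀ c₁ c₂ ρ γ ε₂ ε₃ b (Real.exp ((g : ℝ) ^ 2)) K₁ n g) {q₀ : ℕ} (hq : 2 ≤ q₀)
        (_ : c₁ / 8 ≤ PE L.ν (L.Zg (2 * (C + 1) * g) e)) (p : Prm) (_ : p.PP = PP)
        {Γ s₀ : ℕ} (_ : Γ ≤ p.Γ) (_ : (L.fr hq).P.T + s₀ ≤ p.M)
        (hμ : IsProb (L.mu (2 * (C + 1) * g) e)) {ε : ℝ} (hε : 0 < ε) (hε1 : ε ≤ 1)
        (_ : p.nT * (g / (Λ₀ * (1 + log g))) ≤
          (colF (L.fr hq) L.ln p L.lam hμ (δ * (1 / 2) ^ (2 * (C + 1) * g)) q (exp (-(e * g)))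
            hε hε1).J (L.mu (2 * (C + 1) * g) e)),
        Nonempty (H806.Sys B₀ K₁ PP Γ s₀ Λ kN c₂ ρ ε₂ e n g) := by
  have hE := E0_pos he hδ hδ1 C
  have hP : (0 : ℝ) < 4 * 2 ^ PP * PP := by
    have : (0 : ℝ) < PP := by
      have h : 0 < PP := by omega
      exact_mod_cast h
    positivity
  obtain ⟨A, Λ, hA1, hcν, hnum⟩ := plug_num (P := 4 * 2 ^ PP * PP) (E₀ := E0 e δ C) (Λ₀ := Λ₀)
    (cν := 8 / c₁) hP hE hΛ₀
  refine ⟨Λ, fun kN => ?_⟩
  obtain ⟨g₀, hg₀, hng⟩ := Loc.ng_asy hγ0 hγ1 hc₁ C kN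
  obtain ⟨g₁, hg₁⟩ := Filter.eventually_atTop.1 hnum
  refine ⟨max g₀ g₁, ?_⟩
  intro g hg c₂ ρ ε₂ ε₃ b K₁ n L q₀ hq hZ p hpP Γ s₀ hΓ hM hμ ε hε hε1 hJ
  obtain ⟨hg3, n1, n2, n3, n4⟩ := hg₁ g ((le_max_right _ _).trans hg)
  have hg1 : 1 ≤ g := by omega
  have hgr : (1 : ℝ) ≤ g := by exact_mod_cast hg1
  have hgr0 : (0 : ℝ) < g := by linarith
  have hPE : 0 < PE L.ν (L.Zg (2 * (C + 1) * g) e) := lt_of_lt_of_le (by positivity) hZ
  have hν := L.prob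
  have hne : Nonempty L.Ω := by
    by_contra hcon
    rw [not_nonempty_iff] at hcon
    have h1 := hν.sum
    rw [Fintype.sum_empty] at h1
    exact zero_ne_one h1
  set μ := L.mu (2 * (C + 1) * g) e with hμd
  set F := L.fr hq with hF
  set θ : ℝ := δ * (1 / 2) ^ (2 * (C + 1) * g) with hθ
  set η : ℝ := exp (-(e * g)) with hη
  have hθ0 : 0 < θ := by positivity
  have hη0 : 0 < η := Real.exp_pos _
  set τ : ℝ := (1 / (g : ℝ)) ^ A with hτ
  have hτ0 : 0 < τ := by positivity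
  set E : ℝ := E0 e δ C * g with hEd
  have hE0 : 0 ≤ E := by positivity
  have hEx : exp (-E) ≤ η * θ := exp_E0_le hδ hδ1 C hg1
  have hMT : F.Tm ≤ p.M := F.Tm_le.trans ((Nat.le_add_right _ _).trans hM)
  set f := fw F L.ln p L.lam μ θ q η ε with hf
  have f0 := fw_nonneg F L.ln p L.lam hμ θ q η hε hε1
  have f1 := fw_le_one F L.ln p L.lam (μ := μ) θ q η hε hε1
  have hrel : ∀ c ω, 0 < (cols F L.ln p L.lam f f0 f1).wt μ c (rho F L.ln p L.lam c ω) →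
      exp (-E) ≤ Pr μ (fun ω => Prm.S c.1 (L.ln ω)) (Prm.S c.1 (L.ln ω)) := fun c ω h =>
    hrel_of hμ hη0.le hε hε1 hEx c ω h
  have hPPpos : 0 < p.PP := by omega
  have hnT : (0 : ℝ) < p.nT := by exact_mod_cast p.nT_pos
  have hμν : ∀ ω, μ ω ≤ Λ * L.ν ω := by
    intro ω
    refine (Loc.mu_le ω).trans ?_
    rw [div_le_iff₀ hPE]
    have h1 : (1 : ℝ) ≤ Λ * PE L.ν (L.Zg (2 * (C + 1) * g) e) := by
      calc (1 : ℝ) = 8 / c₁ * (c₁ / 8) := by field_simp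
        _ ≤ Λ * PE L.ν (L.Zg (2 * (C + 1) * g) e) :=
          mul_le_mul hcν hZ (by positivity) (Nat.cast_nonneg _)
    have h2 := mul_le_mul_of_nonneg_left h1 (hν.nonneg ω)
    linarith
  refine ⟨{
    Ω := L.Ω
    fin := L.fin
    ne := hne
    F := F
    ln := L.ln
    p := p
    Lab := L.Lab
    lam := L.lam
    f := H649.fc μ L.ln p τ f
    f0 := H649.fc_nonneg f0
    f1 := H649.fc_le_one f0 f1
    μ := μ
    ν := L.ν
    hμ := hμ
    hν := hν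
    μ_le := hμν
    n_eq := L.fr_n hq
    Kn := L.K_le
    top := fun ω ω' => L.fr_top hq 0 0 ω ω'
    lbl := fun u j ω => L.fr_card_lbl hq u s₀ j ω
    leaves := by
      rw [L.fr_n hq, L.fr_W hq]
      exact L.card_leaves (by omega)
    PP_eq := hpP
    Γ_le := hΓ
    M_ge := hM
    fper := H649.fc_per (fw_per hMT θ q η ε)
    J := ?_
    sup := ?_
    act := ?_
    sep := ?_
    big := ?_
    lab := ?_
    sur := ?_
    split := ?_
    ng := ?_ }⟩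
  · -- total weight
    have h1 := H649.J_fc (f0 := f0) (f1 := f1) hμ hτ0 n4 hE0 hPPpos hrel
    have h2 : (p.nT : ℝ) * (g / (Λ * (1 + log g))) +
        p.nT * (4 * 2 ^ p.PP * (p.PP * (E / log (1 / τ) + 1))) ≤
        p.nT * (g / (Λ₀ * (1 + log g))) := by
      rw [← mul_add, hpP]
      apply mul_le_mul_of_nonneg_left _ hnT.le
      refine le_trans (le_of_eq ?_) n1
      ring
    have h3 : (p.nT : ℝ) * (g / (Λ₀ * (1 + log g))) ≤ (cols F L.ln p L.lam f f0 f1).J μ := hJ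
    linarith
  · -- masses of the labels
    intro c ω h bb
    exact n2.trans (H649.label_mass hτ0 hrel h bb)
  · -- active columns
    intro ω
    have hact : ∀ t : p.Col × L.Ω, 0 < (cols F L.ln p L.lam (H649.fc μ L.ln p τ f)
        (H649.fc_nonneg f0) (H649.fc_le_one f0 f1)).Q μ t → H649.Act μ L.ln p τ E t.1 t.2 :=
      fun t ht => H649.act_of_Q_pos hμ hrel ht
    have h1 := H649.card_active (q := (cols F L.ln p L.lam (H649.fc μ L.ln p τ f)
        (H649.fc_nonneg f0) (H649.fc_le_one f0 f1)).Q μ) hμ hτ0 n4 hE0 hPPpos hact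
        (N₁ := ⌈4 * 2 ^ p.PP * (p.PP * (E / τ + 1))⌉₊) (Nat.le_ceil _) ω
      (univ.filter fun c => ∃ ω', L.ln ω' = L.ln ω ∧
        0 < (cols F L.ln p L.lam (H649.fc μ L.ln p τ f)
        (H649.fc_nonneg f0) (H649.fc_le_one f0 f1)).Q μ (c, ω'))
      (fun c hc => (mem_filter.1 hc).2)
    have h2 : ((⌈4 * 2 ^ p.PP * (p.PP * (E / τ + 1))⌉₊ : ℕ) : ℝ) ≤ (g : ℝ) ^ Λ := by
      have h3 : (0 : ℝ) ≤ 4 * 2 ^ p.PP * (p.PP * (E / τ + 1)) := by positivity
      refine (Nat.ceil_lt_add_one h3).le.trans ?_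
      refine le_trans (le_of_eq ?_) n3
      rw [hpP]
      ring
    refine le_trans (Nat.cast_le.2 h1) ?_
    push_cast
    exact mul_le_mul_of_nonneg_left h2 hnT.le
  · -- separation of the blocks
    intro c r h0
    have h1 := (H649.wt_fc_pos (f0 := f0) (f1 := f1) h0).2
    have h2 := sep_of (ln := L.ln) (lam := L.lam) hμ (by omega : 9 + q ≤ p.PP) hε hε1 h1
    refine le_trans ?_ h2
    have h3 : (2 : ℝ) ^ q ≤ 2 ^ 3 := pow_le_pow_right₀ (by norm_num) hq3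
    have h4 : (0 : ℝ) < 2 ^ q := by positivity
    apply one_div_le_one_div_of_le (by positivity)
    norm_num at h3 ⊢
    linarith
  · -- big boxes
    rintro ⟨c, ω⟩ ha
    have h0 : 0 < (cols F L.ln p L.lam (H649.fc μ L.ln p τ f)
        (H649.fc_nonneg f0) (H649.fc_le_one f0 f1)).wt μ c (rho F L.ln p L.lam c ω) :=
      H700.Cols.wt_pos_of_Q_pos hμ ha
    have h1 := (H649.wt_fc_pos (f0 := f0) (f1 := f1) h0).2
    exact hbig_of hμ hε hε1 c ω h1
  · -- labels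
    intro ω hω
    have h1 := L.mu_lsur hq hω
    rw [Pr_congr (μ := L.ν) (det_swap L.lam ((L.fr hq).P.W n)) (det_swap ((L.fr hq).P.W n) L.lam)
      ω] at h1
    exact lab_of_lsur (Pr_pos hν _ (L.pos ω)) (Pr_pos hν _ (L.pos ω)) h1
  · -- surprise
    intro ω hω
    exact L.mu_sur hq hω
  · -- split blocks
    intro ω hω
    classical
    obtain ⟨S, hS, hS'⟩ := L.mu_bad hq hω
    refine le_trans ?_ hS
    apply Nat.cast_le.2
    apply card_le_card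
    intro j hj
    obtain ⟨h1, h2⟩ := mem_filter.1 hj
    by_contra hc
    exact h2 (hS' j (mem_range.1 h1) hc)
  · -- no giant exits
    intro u T
    have h1 := hng g ((le_max_left _ _).trans hg) L hq (by omega) hC hZ u T
    have e1 : (1 : ℝ) / (g : ℝ) ^ kN = (1 / (g : ℝ)) ^ kN := by rw [one_div_pow]
    rw [e1] at h1
    refine le_trans ?_ h1
    rw [← ms_eq_PE, ← ms_eq_PE]
    refine ms_mono hμ fun ω _ h => ?_
    obtain ⟨t, ht, h2⟩ := h
    refine ⟨t, ht, h2.trans (mul_le_mul_of_nonneg_right ?_ (Pr_nonneg hν _ _))⟩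
    rw [← one_div_pow]
    apply pow_le_pow_of_le_one (by positivity)
    · rw [div_le_one hgr0]
      exact hgr
    · omega

end Vale.Agent.P065.H860
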