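import Vale.Agent.P065.H725.SplitPre
import Vale.Agent.P065.H860.PlugII

/-!
# P065: the dichotomy with case (II) plugged in (helper860)
-/

set_option autoImplicit false

namespace Vale.Agent.P065.H860

open Finset Vale.Agent.P065.UB Vale.Agent.P065.Ent Vale.Agent.P065.H725
  Vale.Agent.P065.H154 Vale.Agent.P065.H859

/-- **the dichotomy**: case (I) of ColSel or the system of case (II) -/
theorem split_II {B₀ C PP kt : ℕ} {c₁ γ e : ℝ} (hB₀ : 2 ≤ B₀) (hC : (B₀ : ℝ) ≤ 2 ^ C)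
    (hc₁ : 0 < c₁) (hγ0 : 0 ≤ γ) (hγ : γ < 1) (he : 0 < e) (hkt : 1 ≤ kt) (hPP : 12 ≤ PP) :
    ∃ Λ : ℕ, ∀ kN : ℕ, ∃ g₁ : ℕ, 2 ≤ g₁ ∧ ∀ g : ℕ, g₁ ≤ g → ∀ (Γ s₀ : ℕ) {c₂ ρ ε₂ ε₃ b : ℝ}
      {K₁ n : ℕ}, b ≤ c₁ / 32 → ε₃ * (2 + 1 / e) ≤ c₁ / 32 →
      ∀ L : Loc B₀ c₁ c₂ ρ γ ε₂ ε₃ b (Real.exp ((g : ℝ) ^ 2)) K₁ n g,
      c₁ / 8 ≤ PE L.ν (L.Zg (2 * (C + 1) * g) e) ∧
      ∃ (_ : IsProb (L.mu (2 * (C + 1) * g) e)) (p : Prm), p.PP = PP ∧ p.Γ = Γ ∧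
        (L.fr (q := 2) le_rfl).P.T + s₀ = p.M ∧
        ((p.nT / 64 : ℝ) < ∑ i : Fin p.nT, ms (L.mu (2 * (C + 1) * g) e) (fun ω => ∃ κ : p.Kap,
          Big (L.fr (q := 2) le_rfl) L.ln p L.lam (L.mu (2 * (C + 1) * g) e)
            (c₁ / 32 * (1 / 2) ^ (2 * (C + 1) * g)) (Real.exp (-(e * g))) (κ, i) ω ∧
          Gnt (L.fr (q := 2) le_rfl) L.ln p L.lam (L.mu (2 * (C + 1) * g) e) 3
            ((1 / (g : ℝ)) ^ kt) (κ, i) ω) ∨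
        Nonempty (H806.Sys B₀ K₁ PP Γ s₀ Λ kN c₂ ρ ε₂ e n g)) := by
  obtain ⟨g₀, hg₀, hpre⟩ := split_pre (by omega : 1 ≤ B₀) hC hc₁ hγ he hkt hPP
  by_cases hc : c₁ ≤ 32
  · have hΛ : (0 : ℝ) < LamII γ e PP kt + 1 := by positivity
    obtain ⟨Λ, hΛN⟩ := sys_of_II (PP := PP) (q := 3) hB₀ hC hc₁ hγ0 hγ he
      (δ := c₁ / 32) (by positivity) (by linarith) hΛ (by omega) le_rfl
    refine ⟨Λ, fun kN => ?_⟩
    obtain ⟨g₁, hg₁⟩ := hΛN kN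
    refine ⟨max g₀ g₁, hg₀.trans (le_max_left _ _), ?_⟩
    intro g hg Γ s₀ c₂ ρ ε₂ ε₃ b K₁ n hb hε₃ L
    obtain ⟨hZ, hμ, p, hp1, hp2, hp3, h⟩ := hpre g ((le_max_left _ _).trans hg) Γ s₀ hb hε₃ L
    refine ⟨hZ, hμ, p, hp1, hp2, hp3, ?_⟩
    rcases h with h | ⟨ε, hε0, hε1, hJ⟩
    · exact Or.inl h
    · refine Or.inr (hg₁ g ((le_max_right _ _).trans hg) L le_rfl hZ p hp1 hp2.symm.le hp3.le hμ
        hε0 hε1 (le_trans ?_ hJ))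
      have hgpos : (1 : ℝ) ≤ g := by
        have : 1 ≤ g := by omega
        exact_mod_cast this
      have hlog : 0 ≤ Real.log (g : ℝ) := Real.log_nonneg hgpos
      apply mul_le_mul_of_nonneg_left _ (Nat.cast_nonneg _)
      rcases Nat.eq_zero_or_pos (LamII γ e PP kt) with h0 | h0
      · exfalso
        have h1 : 0 < LamII γ e PP kt := by
          unfold LamII
          apply Nat.ceil_pos.2
          have h2 : 0 < (1 - γ) * e := mul_pos (by linarith) he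
          have h3 : 0 ≤ Real.log (4 * ((2 : ℝ) ^ PP) ^ 2) := by
            apply Real.log_nonneg
            have : (1 : ℝ) ≤ (2 : ℝ) ^ PP := one_le_pow₀ (by norm_num)
            nlinarith
          positivity
        omega
      · have h0' : (0 : ℝ) < LamII γ e PP kt := by exact_mod_cast h0
        apply div_le_div_of_nonneg_left (by linarith) (by positivity)
        apply mul_le_mul_of_nonneg_right _ (by linarith)
        linarith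
  · refine ⟨0, fun kN => ⟨g₀, hg₀, ?_⟩⟩
    intro g hg Γ s₀ c₂ ρ ε₂ ε₃ b K₁ n hb hε₃ L
    exfalso
    obtain ⟨hZ, -⟩ := hpre g hg Γ s₀ hb hε₃ L
    have h1 : PE L.ν (L.Zg (2 * (C + 1) * g) e) ≤ 1 := Pr_le_one L.prob _ _
    linarith

end Vale.Agent.P065.H860
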