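import Vale.Agent.P065.H860.NGDef
import Vale.Agent.P065.H725.Fine

/-!
# P065, lemma NG: crossing lines share a node (helper860)
-/

set_option autoImplicit false

namespace Vale.Agent.P065.H860

open Finset Vale.Agent.P065.UB Vale.Agent.P065.UB.RankAux Vale.Agent.P065.Ent
  Vale.Agent.P065.H725

/-- the slope cells, two systems -/
noncomputable def cS (k₀ : ℤ) (a : Bool × Bool) (k : ℤ) (v : Pt) : ℤ :=
  dy (if a.1 then 2 ^ (-k₀) / 3 else 0) k v.1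

/-- the height cells at the time `xz`, two systems -/
noncomputable def cZ (κ₀ : ℤ) (xz : ℝ) (a : Bool × Bool) (κ : ℤ) (v : Pt) : ℤ :=
  dy (if a.2 then 2 ^ (-κ₀) / 3 else 0) κ (ht xz v)

theorem cS_nst (k₀ : ℤ) (a : Bool × Bool) : Nst (cS k₀ a) := fun _ _ _ _ h h' => dy_nest h h'

theorem cZ_nst (κ₀ : ℤ) (xz : ℝ) (a : Bool × Bool) : Nst (cZ κ₀ xz a) :=
  fun _ _ _ _ h h' => dy_nest h h'

/-- points in the same cell are close -/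
theorem abs_lt_of_dy {θ : ℝ} {k : ℤ} {x y : ℝ} (h : dy θ k x = dy θ k y) :
    |x - y| < 2 ^ (-k) := by
  have hk : (0 : ℝ) < 2 ^ k := by positivity
  have h1 := Int.abs_sub_lt_one_of_floor_eq_floor h
  have e : (x - θ) * 2 ^ k - (y - θ) * 2 ^ k = (x - y) * 2 ^ k := by ring
  rw [e, abs_mul, abs_of_pos hk] at h1
  rw [zpow_neg, ← one_div, lt_div_iff₀ hk]
  exact h1

/-- a scale for a number in a known range: the shared cell and the separation -/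
theorem scale_cell {k₀ k₁ : ℤ} {x y : ℝ} (hne : x ≠ y) (htop : |x - y| ≤ 2 ^ (-k₀) / 3)
    (hbot : (2 : ℝ) ^ (-k₁) / 6 < |x - y|) :
    ∃ b : Bool, ∃ k ∈ Icc k₀ k₁,
      dy (if b then 2 ^ (-k₀) / 3 else 0) k x = dy (if b then 2 ^ (-k₀) / 3 else 0) k y ∧
      dy (if b then 2 ^ (-k₀) / 3 else 0) (k + 3) x ≠ dy (if b then 2 ^ (-k₀) / 3 else 0) (k + 3) y ∧
      (2 : ℝ) ^ (-k) / 6 < |x - y| ∧ |x - y| ≤ 2 ^ (-k) / 3 := by
  have hδ : 0 < |x - y| := abs_pos.2 (sub_ne_zero.2 hne)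
  obtain ⟨k, hk1, hk2⟩ := exists_scale hδ
  have hk0 : k₀ ≤ k := by
    by_contra hc
    push Not at hc
    have h2 : (2 : ℝ) ^ (-k₀) / 3 ≤ 2 ^ (-k) / 6 := by
      have h3 : (2 : ℝ) ^ (-k₀) ≤ 2 ^ (-k - 1) := zpow_le_zpow_right₀ (by norm_num) (by omega)
      rw [zpow_sub₀ (by norm_num), zpow_one] at h3
      linarith
    linarith
  have hk1' : k ≤ k₁ := by
    by_contra hc
    push Not at hc
    have h6 : (2 : ℝ) ^ (-k) / 3 ≤ 2 ^ (-k₁) / 6 := by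
      have h7 : (2 : ℝ) ^ (-k) ≤ 2 ^ (-k₁ - 1) := zpow_le_zpow_right₀ (by norm_num) (by omega)
      rw [zpow_sub₀ (by norm_num), zpow_one] at h7
      linarith
    linarith
  have hsep : ∀ θ : ℝ, dy θ (k + 3) x ≠ dy θ (k + 3) y := by
    intro θ h
    have h1 := abs_lt_of_dy h
    have h2 : (2 : ℝ) ^ (-(k + 3)) = 2 ^ (-k) / 8 := by
      rw [neg_add, zpow_add₀ (by norm_num)]
      norm_num
      ring
    rw [h2] at h1
    have h3 : (0 : ℝ) < 2 ^ (-k) := by positivity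
    linarith
  rcases third (θ := 0) hk0 hk1 with h2 | h2
  · exact ⟨false, k, mem_Icc.2 ⟨hk0, hk1'⟩, by simpa using h2, hsep _, hk2, hk1⟩
  · rw [zero_add] at h2
    exact ⟨true, k, mem_Icc.2 ⟨hk0, hk1'⟩, by simpa using h2, hsep _, hk2, hk1⟩

/-- **two lines which change their order in `[x0, x1]`** -/
theorem cr_node {x0 x1 xz del Del : ℝ} (hx : x0 ≤ x1) (hdel : 0 < del)
    (hd : ∀ x, x0 ≤ x → x ≤ x1 → del ≤ |x - xz| ∧ |x - xz| ≤ Del) {k₀ k₁ κ₀ κ₁ : ℤ} {u v : Pt}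
    (h : Cr x0 x1 u v) (hne : u.1 ≠ v.1) (htop : |u.1 - v.1| ≤ 2 ^ (-k₀) / 3)
    (hbot : (2 : ℝ) ^ (-k₁) / 6 < |u.1 - v.1|) (htopZ : |ht xz u - ht xz v| ≤ 2 ^ (-κ₀) / 3)
    (hbotZ : ht xz u ≠ ht xz v → (2 : ℝ) ^ (-κ₁) / 6 < |ht xz u - ht xz v|) :
    ∃ a, ∃ k ∈ Icc k₀ k₁, ∃ κ ∈ Icc κ₀ κ₁, cS k₀ a k u = cS k₀ a k v ∧
      cZ κ₀ xz a κ u = cZ κ₀ xz a κ v ∧ cS k₀ a (k + 3) u ≠ cS k₀ a (k + 3) v ∧
      cZ κ₀ xz a (κ + 3) u ≠ cZ κ₀ xz a (κ + 3) v ∧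
      del / 2 ≤ 2 ^ (-(κ - k)) ∧ (2 : ℝ) ^ (-(κ - k)) ≤ 2 * Del := by
  obtain ⟨x, hx0, hx1, hxe⟩ := h.exists_meet hx
  obtain ⟨hd1, hd2⟩ := hd x hx0 hx1
  have hs : 0 < |u.1 - v.1| := abs_pos.2 (sub_ne_zero.2 hne)
  have hc : |ht xz u - ht xz v| = |u.1 - v.1| * |x - xz| := by
    have e : ht xz u - ht xz v = (u.1 - v.1) * (x - xz) := by
      unfold ht at hxe ⊢
      linarith
    rw [e, abs_mul]
  have hc0 : 0 < |ht xz u - ht xz v| := by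
    rw [hc]
    exact mul_pos hs (hdel.trans_le hd1)
  have hneZ : ht xz u ≠ ht xz v := fun h1 => by
    rw [h1, sub_self, abs_zero] at hc0
    exact lt_irrefl _ hc0
  obtain ⟨b1, k, hk, h1, h2, h3, h4⟩ := scale_cell hne htop hbot
  obtain ⟨b2, κ, hκ, h5, h6, h7, h8⟩ := scale_cell hneZ htopZ (hbotZ hneZ)
  have hk0 : (0 : ℝ) < 2 ^ (-k) := by positivity
  have hκ0 : (0 : ℝ) < 2 ^ (-κ) := by positivity
  have e : (2 : ℝ) ^ (-(κ - k)) = 2 ^ (-κ) / 2 ^ (-k) := by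
    rw [← zpow_sub₀ (by norm_num)]
    congr 1
    ring
  refine ⟨(b1, b2), k, hk, κ, hκ, h1, h5, h2, h6, ?_, ?_⟩
  · rw [e, le_div_iff₀ hk0]
    rw [hc] at h8
    have h9 : |u.1 - v.1| * del ≤ |u.1 - v.1| * |x - xz| := mul_le_mul_of_nonneg_left hd1 hs.le
    have h10 : 2 ^ (-k) / 6 * del ≤ |u.1 - v.1| * del := mul_le_mul_of_nonneg_right h3.le hdel.le
    linarith
  · rw [e, div_le_iff₀ hk0]
    rw [hc] at h7
    have hDel : 0 ≤ Del := (abs_nonneg _).trans hd2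
    have h9 : |u.1 - v.1| * |x - xz| ≤ |u.1 - v.1| * Del := mul_le_mul_of_nonneg_left hd2 hs.le
    have h10 : |u.1 - v.1| * Del ≤ 2 ^ (-k) / 3 * Del := mul_le_mul_of_nonneg_right h4 hDel
    linarith

/-- finitely many numbers have a common range of scales -/
theorem exists_range {ι : Type*} [Finite ι] (f : ι → ℝ) : ∃ k₀ k₁ : ℤ, ∀ i,
    |f i| ≤ 2 ^ (-k₀) / 3 ∧ (f i ≠ 0 → (2 : ℝ) ^ (-k₁) / 6 < |f i|) := by
  classical
  have h1 : ∃ k₀ : ℤ, ∀ i, |f i| ≤ 2 ^ (-k₀) / 3 := by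
    obtain ⟨M, hM⟩ := (Set.finite_range (fun i => |f i|)).bddAbove
    obtain ⟨n, hn⟩ := pow_unbounded_of_one_lt (3 * M) (one_lt_two : (1 : ℝ) < 2)
    refine ⟨-n, fun i => ?_⟩
    have h2 : |f i| ≤ M := hM (Set.mem_range_self i)
    rw [neg_neg, zpow_natCast, le_div_iff₀ (by norm_num)]
    linarith
  have h2 : ∃ k₁ : ℤ, ∀ i, f i ≠ 0 → (2 : ℝ) ^ (-k₁) / 6 < |f i| := by
    obtain ⟨M, hM⟩ := (Set.finite_range (fun i => |f i|⁻¹)).bddAbove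
    obtain ⟨n, hn⟩ := pow_unbounded_of_one_lt M (one_lt_two : (1 : ℝ) < 2)
    refine ⟨n, fun i hi => ?_⟩
    have h2 : |f i|⁻¹ ≤ M := hM (Set.mem_range_self i)
    have h3 : 0 < |f i| := abs_pos.2 hi
    have h4 : (0 : ℝ) < 2 ^ n := by positivity
    rw [zpow_neg, zpow_natCast, div_lt_iff₀ (by norm_num), inv_lt_iff_one_lt_mul₀ h4]
    rw [inv_le_iff_one_le_mul₀ h3] at h2
    nlinarith
  obtain ⟨k₀, hk₀⟩ := h1
  obtain ⟨k₁, hk₁⟩ := h2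
  exact ⟨k₀, k₁, fun i => ⟨hk₀ i, hk₁ i⟩⟩

/-- the octaves between `del / 2` and `2 * Del` form an interval of integers -/
noncomputable def olo (Del : ℝ) : ℤ := ⌈- Real.logb 2 (2 * Del)⌉

noncomputable def ohi (del : ℝ) : ℤ := ⌊- Real.logb 2 (del / 2)⌋

theorem le_ohi {del : ℝ} (hdel : 0 < del) (o : ℤ) : o ≤ ohi del ↔ del / 2 ≤ 2 ^ (-o) := by
  unfold ohi
  rw [Int.le_floor, le_neg, Real.logb_le_iff_le_rpow (by norm_num) (by positivity)]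
  rw [← Real.rpow_intCast]
  push_cast
  rfl

theorem olo_le {Del : ℝ} (hDel : 0 < Del) (o : ℤ) : olo Del ≤ o ↔ (2 : ℝ) ^ (-o) ≤ 2 * Del := by
  unfold olo
  rw [Int.ceil_le, neg_le, Real.le_logb_iff_rpow_le (by norm_num) (by positivity)]
  rw [← Real.rpow_intCast]
  push_cast
  rfl

theorem band_iff {del Del : ℝ} (hdel : 0 < del) (hDel : 0 < Del) (o : ℤ) :
    (olo Del ≤ o ∧ o ≤ ohi del) ↔ (del / 2 ≤ 2 ^ (-o) ∧ (2 : ℝ) ^ (-o) ≤ 2 * Del) := by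
  rw [olo_le hDel, le_ohi hdel]
  tauto

end Vale.Agent.P065.H860
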