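import Vale.Agent.P065.H860.NGGeo
import Vale.Agent.P065.H344.NGIrr
import Vale.Agent.P065.H654.NGEnd
import Vale.Agent.P065.H422.NGIdx

/-!
# P065, lemma NG: the lines of a class without conflict are rare (helper860)
-/

set_option autoImplicit false

namespace Vale.Agent.P065.H860

open Finset Vale.Agent.P065.UB Vale.Agent.P065.UB.RankAux Vale.Agent.P065.Ent
  Vale.Agent.P065.H725

/-- the crossing pairs of a set of lines without crossings at relevant nodes are rare -/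
theorem cross_mass_le {Ω Ω' : Type*} [Fintype Ω] [Fintype Ω'] {μ : Ω → ℝ} {ln : Ω → Pt}
    {ν : Ω' → ℝ} (hν : IsProb ν) {ln' : Ω' → Pt}
    (hinj : ∀ ω ω', 0 < ν ω → 0 < ν ω' → (ln' ω).1 = (ln' ω').1 → ln' ω = ln' ω') {B m : ℕ}
    (hdom : ∀ Q : Pt → Prop, ms ν (fun ω => Q (ln' ω)) ≤ 2 ^ B * ms μ (fun ω => Q (ln ω)))
    {x0 x1 xz del Del : ℝ} (hx : x0 ≤ x1) (hdel : 0 < del)
    (hd : ∀ x, x0 ≤ x → x ≤ x1 → del ≤ |x - xz| ∧ |x - xz| ≤ Del) {k₀ k₁ κ₀ κ₁ : ℤ}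
    (hsc : ∀ ω ω', 0 < ν ω → 0 < ν ω' → |(ln' ω).1 - (ln' ω').1| ≤ 2 ^ (-k₀) / 3 ∧
      ((ln' ω).1 ≠ (ln' ω').1 → (2 : ℝ) ^ (-k₁) / 6 < |(ln' ω).1 - (ln' ω').1|))
    (hscZ : ∀ ω ω', 0 < ν ω → 0 < ν ω' →
      |ht xz (ln' ω) - ht xz (ln' ω')| ≤ 2 ^ (-κ₀) / 3 ∧
      (ht xz (ln' ω) ≠ ht xz (ln' ω') →
        (2 : ℝ) ^ (-κ₁) / 6 < |ht xz (ln' ω) - ht xz (ln' ω')|))
    {lo hi : ℤ} (hband : ∀ o : ℤ, del / 2 ≤ 2 ^ (-o) → (2 : ℝ) ^ (-o) ≤ 2 * Del →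
      lo ≤ o ∧ o ≤ hi)
    {A : Pt → Prop}
    (hA : ∀ u v, A u → A v → ∀ a, ∀ k ∈ Icc k₀ k₁, ∀ κ ∈ Icc κ₀ κ₁, cS k₀ a k u = cS k₀ a k v →
      cZ κ₀ xz a κ u = cZ κ₀ xz a κ v → cS k₀ a (k + 3) u ≠ cS k₀ a (k + 3) v →
      cZ κ₀ xz a (κ + 3) u ≠ cZ κ₀ xz a (κ + 3) v → lo ≤ κ - k → κ - k ≤ hi →
      (1 / 2 : ℝ) ^ (B + 6 * m) ≤ nm μ ln (cS k₀ a) (cZ κ₀ xz a) k κ u → False) :
    ∑ ω, ν ω * ms ν (fun ω' => A (ln' ω') ∧ Cr x0 x1 (ln' ω') (ln' ω) ∧ A (ln' ω)) ≤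
      52 * (1 / 2 : ℝ) ^ (3 * m) := by
  classical
  set d : ℝ := (1 / 2 : ℝ) ^ (3 * m) with hdd
  have hd0 : 0 ≤ d := by positivity
  have hd2 : d ^ 2 = (1 / 2 : ℝ) ^ (6 * m) := by
    rw [hdd, ← pow_mul]
    congr 1
    ring
  have h1 : ∀ ω, ν ω * ms ν (fun ω' => A (ln' ω') ∧ Cr x0 x1 (ln' ω') (ln' ω) ∧ A (ln' ω)) ≤
      ν ω * ms ν (fun ω' => ∃ a, ∃ k ∈ Icc k₀ k₁, ∃ κ ∈ Icc κ₀ κ₁,
        cS k₀ a k (ln' ω') = cS k₀ a k (ln' ω) ∧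
        cZ κ₀ xz a κ (ln' ω') = cZ κ₀ xz a κ (ln' ω) ∧
        cS k₀ a (k + 3) (ln' ω') ≠ cS k₀ a (k + 3) (ln' ω) ∧
        nm ν ln' (cS k₀ a) (cZ κ₀ xz a) k κ (ln' ω) < d ^ 2) := by
    intro ω
    rcases (hν.nonneg ω).eq_or_lt with h0 | h0
    · rw [← h0, zero_mul, zero_mul]
    apply mul_le_mul_of_nonneg_left _ h0.le
    apply ms_mono hν
    rintro ω' hω' ⟨hA', hcr, hA0⟩
    have hne : (ln' ω').1 ≠ (ln' ω).1 := fun h => hcr.ne (hinj _ _ hω' h0 h)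
    obtain ⟨a, k, hk, κ, hκ, h2, h3, h4, h5, h6, h7⟩ := cr_node hx hdel hd hcr hne
      (hsc ω' ω hω' h0).1 ((hsc ω' ω hω' h0).2 hne) (hscZ ω' ω hω' h0).1 (hscZ ω' ω hω' h0).2
    obtain ⟨h8, h9⟩ := hband _ h6 h7
    refine ⟨a, k, hk, κ, hκ, h2, h3, h4, ?_⟩
    have h10 : nm μ ln (cS k₀ a) (cZ κ₀ xz a) k κ (ln' ω) < (1 / 2 : ℝ) ^ (B + 6 * m) := by
      by_contra hc
      push Not at hc
      exact hA _ _ hA0 hA' a k hk κ hκ h2.symm h3.symm h4.symm h5.symm h8 h9 hc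
    have h11 : nm ν ln' (cS k₀ a) (cZ κ₀ xz a) k κ (ln' ω) ≤
        2 ^ B * nm μ ln (cS k₀ a) (cZ κ₀ xz a) k κ (ln' ω) :=
      hdom (fun v => cS k₀ a k v = cS k₀ a k (ln' ω) ∧ cZ κ₀ xz a κ v = cZ κ₀ xz a κ (ln' ω))
    refine h11.trans_lt ?_
    rw [hd2]
    have h12 : (2 : ℝ) ^ B * nm μ ln (cS k₀ a) (cZ κ₀ xz a) k κ (ln' ω) <
        2 ^ B * (1 / 2 : ℝ) ^ (B + 6 * m) := mul_lt_mul_of_pos_left h10 (by positivity)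
    refine h12.trans_le (le_of_eq ?_)
    rw [pow_add, ← mul_assoc, ← mul_pow]
    norm_num
  refine (sum_le_sum fun ω _ => h1 ω).trans ?_
  have h2 := H344.irr_pairs_all hν ln' (S := cS k₀) (Z := cZ κ₀ xz) (cS_nst k₀) (cZ_nst κ₀ xz)
    (Icc k₀ k₁) (Icc κ₀ κ₁) hd0
  refine h2.trans (le_of_eq ?_)
  have h3 : ((Fintype.card (Bool × Bool) : ℕ) : ℝ) = 4 := by
    rw [Fintype.card_prod, Fintype.card_bool]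
    norm_num
  rw [h3]
  ring

/-- the constants of the class bound: `N log 2 + 5 ≤ (1 - γ) m / 4` -/
theorem consts {γ : ℝ} (hγ1 : γ < 1) : ∃ Lq m₀ : ℕ, 1 ≤ Lq ∧ ∀ B m : ℕ, m₀ ≤ m → B ≤ m →
    ((9 * 4 * (6 * ((B + 6 * m) / Lq + 1)) : ℕ) : ℝ) * Real.log 2 + 5 ≤
      (1 - γ) * (2 * m) / 8 := by
  have h1γ : 0 < 1 - γ := by linarith
  obtain ⟨Lq, hLq⟩ := exists_nat_gt (216 * 7 * 8 / (1 - γ))
  obtain ⟨m₀, hm₀⟩ := exists_nat_gt (222 * 8 / (1 - γ))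
  have hLq0 : (0 : ℝ) < Lq := lt_of_le_of_lt (by positivity) hLq
  refine ⟨Lq, m₀, by exact_mod_cast hLq0, fun B m hm hB => ?_⟩
  have hm' : (m₀ : ℝ) ≤ m := by exact_mod_cast hm
  have hB' : (B : ℝ) ≤ m := by exact_mod_cast hB
  have hdiv : (((B + 6 * m) / Lq : ℕ) : ℝ) ≤ (B + 6 * m) / Lq := by
    refine Nat.cast_div_le.trans (le_of_eq ?_)
    push_cast
    ring
  have h2 : (B + 6 * m : ℝ) / Lq ≤ 7 * m / Lq := by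
    apply div_le_div_of_nonneg_right _ hLq0.le
    linarith
  have h3 : (7 * m : ℝ) / Lq ≤ (1 - γ) * m / (216 * 8) := by
    rw [div_le_div_iff₀ hLq0 (by norm_num)]
    rw [div_lt_iff₀ h1γ] at hLq
    have h5 : (0 : ℝ) ≤ m := Nat.cast_nonneg m
    nlinarith
  have h4 : (222 * 8 : ℝ) ≤ (1 - γ) * m := by
    rw [div_lt_iff₀ h1γ] at hm₀
    nlinarith
  have hlog : Real.log 2 ≤ 1 := by
    have := Real.log_two_lt_d9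
    linarith
  have hlog0 : 0 ≤ Real.log 2 := Real.log_nonneg (by norm_num)
  have h6 : ((9 * 4 * (6 * ((B + 6 * m) / Lq + 1)) : ℕ) : ℝ) ≤
      216 * ((1 - γ) * m / (216 * 8) + 1) := by
    push_cast
    linarith
  have h7 : ((9 * 4 * (6 * ((B + 6 * m) / Lq + 1)) : ℕ) : ℝ) * Real.log 2 ≤
      216 * ((1 - γ) * m / (216 * 8) + 1) * 1 := by
    apply mul_le_mul h6 hlog hlog0
    positivity
  linarith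

/-- **lemma NG, the class bound**: in a class of flags with the crossing lemma, the lines without
conflict are rare. `μ` is the law of the lines through the top cell, `ν` the law of the class. -/
theorem class_ng {γ : ℝ} (hγ0 : 0 ≤ γ) (hγ1 : γ < 1) : ∃ Lq m₀ : ℕ, 1 ≤ Lq ∧
    ∀ {Ω Ω' : Type} [Fintype Ω] [Fintype Ω'] {μ : Ω → ℝ} (_ : IsProb μ) (ln : Ω → Pt)
    {ν : Ω' → ℝ} (_ : IsProb ν) (ln' : Ω' → Pt)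
    (_ : ∀ ω ω', 0 < ν ω → 0 < ν ω' → (ln' ω).1 = (ln' ω').1 → ln' ω = ln' ω')
    {B m : ℕ} (_ : m₀ ≤ m) (_ : B ≤ m)
    (_ : ∀ Q : Pt → Prop, ms ν (fun ω => Q (ln' ω)) ≤ 2 ^ B * ms μ (fun ω => Q (ln ω)))
    {x0 x1 xz del Del : ℝ} (_ : x0 ≤ x1) (_ : 0 < del)
    (_ : ∀ x, x0 ≤ x → x ≤ x1 → del ≤ |x - xz| ∧ |x - xz| ≤ Del) {k₀ k₁ κ₀ κ₁ : ℤ}
    (_ : ∀ ω ω', 0 < ν ω → 0 < ν ω' → |(ln' ω).1 - (ln' ω').1| ≤ 2 ^ (-k₀) / 3 ∧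
      ((ln' ω).1 ≠ (ln' ω').1 → (2 : ℝ) ^ (-k₁) / 6 < |(ln' ω).1 - (ln' ω').1|))
    (_ : ∀ ω ω', 0 < ν ω → 0 < ν ω' →
      |ht xz (ln' ω) - ht xz (ln' ω')| ≤ 2 ^ (-κ₀) / 3 ∧
      (ht xz (ln' ω) ≠ ht xz (ln' ω') →
        (2 : ℝ) ^ (-κ₁) / 6 < |ht xz (ln' ω) - ht xz (ln' ω')|))
    {omin omax lo hi : ℤ} (_ : omin ≤ lo) (_ : hi ≤ omax)
    (_ : ∀ o : ℤ, del / 2 ≤ 2 ^ (-o) → (2 : ℝ) ^ (-o) ≤ 2 * Del → lo ≤ o ∧ o ≤ hi)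
    {A : ℝ} (_ : (2 : ℝ) ^ (3 * m) ≤ 6 * A)
    (_ : ∀ S : Pt → Prop, 0 < ms ν (fun ω => S (ln' ω)) → ∀ R : ℝ, 1 ≤ R →
      16 * R ≤ A * ms ν (fun ω => S (ln' ω)) →
      ∑ ω, ν ω * ms ν (fun ω' => S (ln' ω') ∧ Cr x0 x1 (ln' ω') (ln' ω) ∧ S (ln' ω)) ≤
        ms ν (fun ω => S (ln' ω)) ^ 2 / (2 * R) →
      (1 - γ) * Real.log (R / 2) ≤ 2 * Real.log (1 / ms ν (fun ω => S (ln' ω))) + 12),
    ms ν (fun ω => ¬ Cnf μ ln (cS k₀) (cZ κ₀ xz) ((1 / 2) ^ Lq) (B + 6 * m) omin omax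
      k₀ k₁ κ₀ κ₁ lo hi (ln' ω)) ≤ Real.exp (-((1 - γ) * (2 * m) / 8)) := by
  obtain ⟨Lq, m₀, hLq, hc⟩ := consts hγ1
  refine ⟨Lq, m₀, hLq, ?_⟩
  intro Ω Ω' _ _ μ hμ ln ν hν ln' hinj B m hm hB hdom x0 x1 xz del Del hx hdel hd k₀ k₁ κ₀ κ₁
    hsc hscZ omin omax lo hi h1 h3 hband A hA hcross
  obtain ⟨A₁, hA1, hA2, hA3⟩ := H422.exists_sub (ν := ν) ln ln' (cS_nst k₀)
    (cZ_nst κ₀ xz) hμ (q := (1 / 2) ^ Lq) (by positivity) hLq le_rfl (E := B + 6 * m) h1 h3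
    (κ₀ := κ₀) (κ₁ := κ₁) (k₀ := k₀) (k₁ := k₁)
    (fun v => ¬ Cnf μ ln (cS k₀) (cZ κ₀ xz) ((1 / 2) ^ Lq) (B + 6 * m) omin omax
      k₀ k₁ κ₀ κ₁ lo hi v) (fun v hv => hv)
  rw [Fintype.card_prod, Fintype.card_bool] at hA2
  set p := ms ν (fun ω => ¬ Cnf μ ln (cS k₀) (cZ κ₀ xz) ((1 / 2) ^ Lq) (B + 6 * m) omin omax
      k₀ k₁ κ₀ κ₁ lo hi (ln' ω)) with hp
  rcases (ms_nonneg hν (fun ω => A₁ (ln' ω))).eq_or_lt with h0 | h0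
  · rw [← h0, mul_zero] at hA2
    exact hA2.trans (Real.exp_pos _).le
  have hX := cross_mass_le hν hinj hdom hx hdel hd hsc hscZ hband hA3
  have e1 : (3 * (2 * (m : ℝ)) / 2) = ((3 * m : ℕ) : ℝ) := by
    push_cast
    ring
  refine H654.ng_end2 (A := A) (N := ((9 * 4 * (6 * ((B + 6 * m) / Lq + 1)) : ℕ) : ℝ)) hγ0 hγ1
    (by positivity) h0 (ms_le_one hν _) ?_ ?_ ?_ (hcross A₁ h0) (hc B m hm hB)
  · rw [Real.rpow_natCast]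
    exact hA2
  · rw [e1, Real.rpow_natCast]
    exact hX
  · rw [e1, Real.rpow_natCast]
    exact hA

end Vale.Agent.P065.H860
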