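import Vale.Agent.P065.H725.Mass

/-!
# P065, lemma NG: the common definitions (helper860)

`S k v` and `Z κ v` are nested labels of a line `v` (slope cell, height cell), `μ` is a law on
flags, `ln` the line of a flag. The node `(k, κ)` of `v` is the set of lines with the same labels
`S k` and `Z κ`.
-/

set_option autoImplicit false

namespace Vale.Agent.P065.H860

open Finset Vale.Agent.P065.Ent Vale.Agent.P065.H725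

variable {Ω L ζ : Type*} [Fintype Ω]

/-- nested labels -/
def Nst (S : ℤ → L → ζ) : Prop := ∀ ⦃k k' : ℤ⦄ ⦃u v : L⦄, k ≤ k' → S k' u = S k' v → S k u = S k v

/-- the mass of the node `(k, κ)` of `v` -/
noncomputable def nm (μ : Ω → ℝ) (ln : Ω → L) (S Z : ℤ → L → ζ) (k κ : ℤ) (v : L) : ℝ :=
  ms μ (fun ω => S k (ln ω) = S k v ∧ Z κ (ln ω) = Z κ v)

/-- `k ∈ E_S(v)`: at some relevant node `(k, κ)` with `k + o ≤ κ ≤ κ₁` the own child `(k + 3, κ)`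
has share at most `1 - q`. For `E_Z` exchange `S` and `Z`. -/
def Bad (μ : Ω → ℝ) (ln : Ω → L) (S Z : ℤ → L → ζ) (q : ℝ) (E : ℕ) (o κ₁ k : ℤ) (v : L) : Prop :=
  ∃ κ, k + o ≤ κ ∧ κ ≤ κ₁ ∧ (1 / 2 : ℝ) ^ E ≤ nm μ ln S Z k κ v ∧
    nm μ ln S Z (k + 3) κ v ≤ (1 - q) * nm μ ln S Z k κ v

/-- `k ∈ S0(v)`: the node `(k, k + o)` is relevant and the own child `(k + 3, k + o)` has share at
most `q`. For `Z0` exchange `S` and `Z`. -/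
def Evt (μ : Ω → ℝ) (ln : Ω → L) (S Z : ℤ → L → ζ) (q : ℝ) (E : ℕ) (o k : ℤ) (v : L) : Prop :=
  (1 / 2 : ℝ) ^ E ≤ nm μ ln S Z k (k + o) v ∧
    nm μ ln S Z (k + 3) (k + o) v ≤ q * nm μ ln S Z k (k + o) v

/-- the conflict of a line with the band `[olo, ohi]` of octaves, one system:
`(k, κ) ∈ E_S(v) × E_Z(v)` with `olo ≤ κ - k ≤ ohi`; `K = [k₀, k₁]`, `K' = [κ₀, κ₁]` -/
def Cnf1 (μ : Ω → ℝ) (ln : Ω → L) (S Z : ℤ → L → ζ) (q : ℝ) (E : ℕ)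
    (omin omax k₀ k₁ κ₀ κ₁ olo ohi : ℤ) (v : L) : Prop :=
  ∃ k ∈ Icc k₀ k₁, ∃ κ ∈ Icc κ₀ κ₁, Bad μ ln S Z q E omin κ₁ k v ∧
    Bad μ ln Z S q E (-omax) k₁ κ v ∧ olo ≤ κ - k ∧ κ - k ≤ ohi

/-- the conflict in one of the systems `a : α` -/
def Cnf {α : Type*} (μ : Ω → ℝ) (ln : Ω → L) (S Z : α → ℤ → L → ζ) (q : ℝ) (E : ℕ)
    (omin omax k₀ k₁ κ₀ κ₁ olo ohi : ℤ) (v : L) : Prop :=
  ∃ a, Cnf1 μ ln (S a) (Z a) q E omin omax k₀ k₁ κ₀ κ₁ olo ohi v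

theorem nm_swap (μ : Ω → ℝ) (ln : Ω → L) (S Z : ℤ → L → ζ) (k κ : ℤ) (v : L) :
    nm μ ln S Z k κ v = nm μ ln Z S κ k v := by
  unfold nm
  congr 1
  funext ω
  exact propext and_comm

theorem nm_congr {μ : Ω → ℝ} {ln : Ω → L} {S Z : ℤ → L → ζ} {k κ : ℤ} {u v : L}
    (h1 : S k u = S k v) (h2 : Z κ u = Z κ v) : nm μ ln S Z k κ u = nm μ ln S Z k κ v := by
  unfold nm
  rw [h1, h2]

theorem nm_nonneg {μ : Ω → ℝ} (hμ : IsProb μ) (ln : Ω → L) (S Z : ℤ → L → ζ) (k κ : ℤ) (v : L) :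
    0 ≤ nm μ ln S Z k κ v := ms_nonneg hμ _

theorem nm_le_one {μ : Ω → ℝ} (hμ : IsProb μ) (ln : Ω → L) (S Z : ℤ → L → ζ) (k κ : ℤ) (v : L) :
    nm μ ln S Z k κ v ≤ 1 := ms_le_one hμ _

theorem nm_anti {μ : Ω → ℝ} (hμ : IsProb μ) (ln : Ω → L) {S Z : ℤ → L → ζ} (hS : Nst S)
    (hZ : Nst Z) {k k' κ κ' : ℤ} (hk : k ≤ k') (hκ : κ ≤ κ') (v : L) :
    nm μ ln S Z k' κ' v ≤ nm μ ln S Z k κ v :=
  ms_mono hμ fun _ _ h => ⟨hS hk h.1, hZ hκ h.2⟩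

end Vale.Agent.P065.H860
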