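import Vale.Agent.P065.H860.ColPerF
import Vale.Agent.P065.H654.CoarseFr

/-!
# P065: the giants of 725 are the giants of 654 (helper860)
-/

set_option autoImplicit false

noncomputable section

namespace Vale.Agent.P065.H860

open Finset Vale.Agent.P065.UB Vale.Agent.P065.Ent Vale.Agent.P065.H725 Vale.Agent.P065.H154

variable {Ω : Type*} {F : Fr Ω} {ln : Ω → Pt} {p : Prm} {Lab : Type*} {lam : Ω → Lab}
  [Fintype Ω] {μ : Ω → ℝ}

theorem rad_div (q : ℕ) (k : ℤ) : rad q k / 4 = 2 ^ (-(k + (q : ℤ))) / 48 := by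
  unfold rad
  ring

/-- **giants in the two languages** -/
theorem Gnt_iff_GiC (q : ℕ) (τ : ℝ) (c : p.Col) (ω : Ω) :
    Gnt F ln p lam μ q τ c ω ↔ H654.GiC F ln p lam μ q τ c ω := by
  classical
  have e : ms μ (fun ω' => rho F ln p lam c ω' = rho F ln p lam c ω ∧
      |(ln ω').1 - (ln ω).1| ≤ rad q (Prm.sc c.1) / 4) =
      H268.msc μ (fun ω' => |(ln ω').1 - (ln ω).1| ≤ 2 ^ (-(Prm.sc c.1 + (q : ℤ))) / 48)
        (rho F ln p lam c) ω := by
    rw [H725.ms_eq]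
    unfold H268.msc
    refine sum_congr rfl fun ω' _ => ?_
    rw [rad_div]
    by_cases h1 : rho F ln p lam c ω' = rho F ln p lam c ω <;>
      by_cases h2 : |(ln ω').1 - (ln ω).1| ≤ 2 ^ (-(Prm.sc c.1 + (q : ℤ))) / 48 <;>
      simp [h1, h2]
  unfold Gnt H654.GiC
  rw [e]

end Vale.Agent.P065.H860
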