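import Vale.Agent.P065.H725.ColPer
import Vale.Agent.P065.H154.FrameGuard

/-!
# P065: the columns of ColSel are periodic in the offset; exports (helper860)

`fw` (725's weights), `Big`, `Gnt` and every function of the fine box (as a set of flags) depend on
the offset modulo the fine unit only. A flag with positive weight lies in a big box of a class of
mass at least `θ`, the blocks are admissible and both labels have a share at least `ε`.
-/

set_option autoImplicit false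

noncomputable section

namespace Vale.Agent.P065.H860

open Finset Vale.Agent.P065.UB Vale.Agent.P065.Ent Vale.Agent.P065.H725 Vale.Agent.P065.H154

section per

variable {Ω : Type*} {F : Fr Ω} {ln : Ω → Pt} {p : Prm} {Lab : Type*} {lam : Ω → Lab}

/-- **two offsets which agree modulo the fine unit give the same fine boxes** -/
theorem box_set_eq (hM : F.Tm ≤ p.M) (k : p.Kap) {i i' : Fin p.nT} {ω : Ω}
    (h : (i : ℕ) % (3 * 2 ^ (Prm.ex k - F.T' ω)) = i' % (3 * 2 ^ (Prm.ex k - F.T' ω))) :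
    (fun ω' => rho F ln p lam (k, i) ω' = rho F ln p lam (k, i) ω) =
      (fun ω' => rho F ln p lam (k, i') ω' = rho F ln p lam (k, i') ω) := by
  funext ω'
  exact propext (rho_iff hM k h)

/-- a function of the slope scale and of the fine box as a set of flags is periodic -/
theorem box_fun_per (hM : F.Tm ≤ p.M) {θ : Type*} (G : p.Kap → (Ω → Prop) → Ω → θ) (k : p.Kap)
    {i i' : Fin p.nT} {ω : Ω}
    (h : (i : ℕ) % (3 * 2 ^ (Prm.ex k - F.T' ω)) = i' % (3 * 2 ^ (Prm.ex k - F.T' ω))) :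
    G k (fun ω' => rho F ln p lam (k, i) ω' = rho F ln p lam (k, i) ω) ω =
      G k (fun ω' => rho F ln p lam (k, i') ω' = rho F ln p lam (k, i') ω) ω := by
  rw [box_set_eq hM k h]

variable [Fintype Ω] {μ : Ω → ℝ}

theorem shr_per (hM : F.Tm ≤ p.M) (k : p.Kap) {i i' : Fin p.nT} {ω : Ω}
    (h : (i : ℕ) % (3 * 2 ^ (Prm.ex k - F.T' ω)) = i' % (3 * 2 ^ (Prm.ex k - F.T' ω))) (b : Bool) :
    shr F ln p lam μ (k, i) b (rho F ln p lam (k, i) ω) =
      shr F ln p lam μ (k, i') b (rho F ln p lam (k, i') ω) :=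
  c_per (μ := μ) (f := fun _ _ => 0) (f0 := fun _ _ => le_rfl) (f1 := fun _ _ => zero_le_one)
    hM k h b

theorem mpi_per (hM : F.Tm ≤ p.M) (k : p.Kap) {i i' : Fin p.nT} {ω : Ω}
    (h : (i : ℕ) % (3 * 2 ^ (Prm.ex k - F.T' ω)) = i' % (3 * 2 ^ (Prm.ex k - F.T' ω))) :
    mpi F ln p lam μ (k, i) (rho F ln p lam (k, i) ω) =
      mpi F ln p lam μ (k, i') (rho F ln p lam (k, i') ω) := by
  unfold mpi
  rw [shr_per hM k h, shr_per hM k h]

/-- **the weights of ColSel are periodic** -/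
theorem fw_per (hM : F.Tm ≤ p.M) (θ : ℝ) (q : ℕ) (η ε : ℝ) :
    FPer F ln p lam (fw F ln p lam μ θ q η ε) := by
  classical
  intro k i i' ω h
  have e1 : Pr μ (rho F ln p lam (k, i)) (rho F ln p lam (k, i) ω) =
      Pr μ (rho F ln p lam (k, i')) (rho F ln p lam (k, i') ω) := Pr_rho_per hM k h
  have e2 := mpi_per (μ := μ) (ln := ln) (lam := lam) hM k h
  have e3 : (rho F ln p lam (k, i) ω).1 = (rho F ln p lam (k, i') ω).1 := rfl
  unfold fw
  rw [e1, e2, e3]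

/-- **big boxes are periodic** -/
theorem Big_per (hM : F.Tm ≤ p.M) (θ η : ℝ) (k : p.Kap) {i i' : Fin p.nT} {ω : Ω}
    (h : (i : ℕ) % (3 * 2 ^ (Prm.ex k - F.T' ω)) = i' % (3 * 2 ^ (Prm.ex k - F.T' ω))) :
    Big F ln p lam μ θ η (k, i) ω ↔ Big F ln p lam μ θ η (k, i') ω := by
  unfold Big
  rw [Pr_rho_per hM k h]

/-- **giants are periodic** -/
theorem Gnt_per (hM : F.Tm ≤ p.M) (q : ℕ) (τ : ℝ) (k : p.Kap) {i i' : Fin p.nT} {ω : Ω}
    (h : (i : ℕ) % (3 * 2 ^ (Prm.ex k - F.T' ω)) = i' % (3 * 2 ^ (Prm.ex k - F.T' ω))) :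
    Gnt F ln p lam μ q τ (k, i) ω ↔ Gnt F ln p lam μ q τ (k, i') ω := by
  have e : (fun ω' => rho F ln p lam (k, i) ω' = rho F ln p lam (k, i) ω ∧
      |(ln ω').1 - (ln ω).1| ≤ rad q (Prm.sc k) / 4) =
      (fun ω' => rho F ln p lam (k, i') ω' = rho F ln p lam (k, i') ω ∧
      |(ln ω').1 - (ln ω).1| ≤ rad q (Prm.sc k) / 4) := by
    funext ω'
    exact propext (and_congr (rho_iff hM k h) Iff.rfl)
  unfold Gnt
  rw [Pr_rho_per hM k h, e]

end per

section exports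

variable {Ω : Type*} {F : Fr Ω} {ln : Ω → Pt} {p : Prm} {Lab : Type*} {lam : Ω → Lab}
  [Fintype Ω] {μ : Ω → ℝ} {θ : ℝ} {q : ℕ} {η ε : ℝ}

/-- positive weight function -/
theorem fw_pos {c : p.Col} {r : (ℕ × Lab) × ℤ × ℤ} (h : 0 < fw F ln p lam μ θ q η ε c r) :
    θ ≤ Pr μ (FV F lam) r.1 ∧ η * Pr μ (FV F lam) r.1 ≤ Pr μ (rho F ln p lam c) r ∧
      Adm q p.PP c.1.2.2.1 c.1.2.2.2 ∧ ε ≤ mpi F ln p lam μ c r := by
  classical
  unfold fw at h
  split_ifs at h with h1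
  · exact h1
  · exact absurd h (lt_irrefl _)

/-- **positive weight**: the class has mass at least `θ`, the box at least the share `η`, the
blocks are admissible, the shares are at least `ε` -/
theorem colF_pos (hμ : IsProb μ) (hε : 0 < ε) (hε1 : ε ≤ 1) {c : p.Col}
    {r : (ℕ × Lab) × ℤ × ℤ} (h : 0 < (colF F ln p lam hμ θ q η hε hε1).wt μ c r) :
    θ ≤ Pr μ (FV F lam) r.1 ∧ η * Pr μ (FV F lam) r.1 ≤ Pr μ (rho F ln p lam c) r ∧
      Adm q p.PP c.1.2.2.1 c.1.2.2.2 ∧ ε ≤ mpi F ln p lam μ c r := by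
  apply fw_pos
  have h1 : (colF F ln p lam hμ θ q η hε hε1).wt μ c r =
      fw F ln p lam μ θ q η ε c r * mpi F ln p lam μ c r := rfl
  rw [h1] at h
  by_contra hc
  have h2 : fw F ln p lam μ θ q η ε c r ≤ 0 := not_lt.1 hc
  have h3 := mul_nonpos_of_nonpos_of_nonneg h2 (mpi_nonneg F ln p lam hμ c r)
  linarith

/-- the fine box determines the slope cell -/
theorem Pr_rho_le_S (hμ : IsProb μ) (c : p.Col) (ω : Ω) :
    Pr μ (rho F ln p lam c) (rho F ln p lam c ω) ≤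
      Pr μ (fun ω => Prm.S c.1 (ln ω)) (Prm.S c.1 (ln ω)) := by
  rw [← H725.ms_eq_Pr, ← H725.ms_eq_Pr]
  refine H725.ms_mono hμ fun ω' _ h => ?_
  exact (Prod.mk.inj (Prod.mk.inj h).2).1

/-- **`hrel`** of 649: the slope cell of a flag with positive weight has mass at least `η θ` -/
theorem hrel_of (hμ : IsProb μ) (hη : 0 ≤ η) (hε : 0 < ε) (hε1 : ε ≤ 1) {E : ℝ}
    (hE : Real.exp (-E) ≤ η * θ) (c : p.Col) (ω : Ω)
    (h : 0 < (colF F ln p lam hμ θ q η hε hε1).wt μ c (rho F ln p lam c ω)) :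
    Real.exp (-E) ≤ Pr μ (fun ω => Prm.S c.1 (ln ω)) (Prm.S c.1 (ln ω)) := by
  obtain ⟨h1, h2, -, -⟩ := colF_pos hμ hε hε1 h
  have h3 := Pr_rho_le_S (F := F) (ln := ln) (lam := lam) hμ c ω
  have h4 := mul_le_mul_of_nonneg_left h1 hη
  linarith

/-- **`hbig`** of 806: the fine box of a flag with positive weight is not small in its class -/
theorem hbig_of (hμ : IsProb μ) (hε : 0 < ε) (hε1 : ε ≤ 1) (c : p.Col) (ω : Ω)
    (h : 0 < (colF F ln p lam hμ θ q η hε hε1).wt μ c (rho F ln p lam c ω)) :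
    η * Pr μ (fun ω => (F.P.W F.n ω, lam ω)) (F.P.W F.n ω, lam ω) ≤
      Pr μ (rho F ln p lam c) (rho F ln p lam c ω) := (colF_pos hμ hε hε1 h).2.1

/-- the blocks of a column with positive weight are admissible -/
theorem adm_of (hμ : IsProb μ) (hε : 0 < ε) (hε1 : ε ≤ 1) {c : p.Col}
    {r : (ℕ × Lab) × ℤ × ℤ} (h : 0 < (colF F ln p lam hμ θ q η hε hε1).wt μ c r) :
    Adm q p.PP c.1.2.2.1 c.1.2.2.2 := (colF_pos hμ hε hε1 h).2.2.1

/-- **the shares of the labels** of a flag with positive weight -/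
theorem share_of (hμ : IsProb μ) (hε : 0 < ε) (hε1 : ε ≤ 1) {c : p.Col}
    {r : (ℕ × Lab) × ℤ × ℤ} (h : 0 < (colF F ln p lam hμ θ q η hε hε1).wt μ c r) (b : Bool) :
    ε ≤ (colF F ln p lam hμ θ q η hε hε1).c μ c b r := by
  have h1 := (colF_pos hμ hε hε1 h).2.2.2
  cases b
  · exact h1.trans (min_le_left _ _)
  · exact h1.trans (min_le_right _ _)

/-- **`hsup`** of 987: both labels have a large mass in the slope cell of a flag with positive
weight -/
theorem hsup_of (hμ : IsProb μ) (hη : 0 < η) (hθ : 0 < θ) (hε : 0 < ε) (hε1 : ε ≤ 1) {E : ℝ}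
    (hE : Real.exp (-E) ≤ ε * (η * θ)) (c : p.Col) (ω : Ω)
    (h : 0 < (colF F ln p lam hμ θ q η hε hε1).wt μ c (rho F ln p lam c ω)) (b : Bool) :
    Real.exp (-E) ≤ Pr μ (fun ω => (lb ln p c ω, Prm.S c.1 (ln ω)))
      (some b, Prm.S c.1 (ln ω)) := by
  obtain ⟨h1, h2, -, -⟩ := colF_pos hμ hε hε1 h
  have h3 := share_of hμ hε hε1 h b
  have h4 : η * θ ≤ Pr μ (rho F ln p lam c) (rho F ln p lam c ω) :=
    (mul_le_mul_of_nonneg_left h1 hη.le).trans h2
  have h5 : 0 < Pr μ (rho F ln p lam c) (rho F ln p lam c ω) :=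
    lt_of_lt_of_le (mul_pos hη hθ) h4
  have h6 : (colF F ln p lam hμ θ q η hε hε1).c μ c b (rho F ln p lam c ω) =
      Pr μ (fun ω => (lb ln p c ω, rho F ln p lam c ω)) (some b, rho F ln p lam c ω) /
        Pr μ (rho F ln p lam c) (rho F ln p lam c ω) := rfl
  rw [h6, le_div_iff₀ h5] at h3
  have h7 : Pr μ (fun ω => (lb ln p c ω, rho F ln p lam c ω)) (some b, rho F ln p lam c ω) ≤
      Pr μ (fun ω => (lb ln p c ω, Prm.S c.1 (ln ω))) (some b, Prm.S c.1 (ln ω)) := by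
    rw [← H725.ms_eq_Pr, ← H725.ms_eq_Pr]
    refine H725.ms_mono hμ fun ω' _ h => ?_
    have h8 := Prod.mk.inj h
    exact Prod.ext h8.1 (Prod.mk.inj (Prod.mk.inj h8.2).2).1
  have h8 := mul_le_mul_of_nonneg_left h4 hε.le
  linarith

/-- separation of the two marked blocks: `64 * 2 ^ q * |b₀ - b₁| > 2 ^ PP` -/
theorem sep_of (hμ : IsProb μ) (hP : 9 + q ≤ p.PP) (hε : 0 < ε) (hε1 : ε ≤ 1) {c : p.Col}
    {r : (ℕ × Lab) × ℤ × ℤ} (h : 0 < (colF F ln p lam hμ θ q η hε hε1).wt μ c r) :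
    1 / (64 * 2 ^ q) ≤ |(Prm.b0 c.1 : ℝ) - (Prm.b1 c.1 : ℝ)| / 2 ^ p.PP := by
  have h1 := (adm_of hμ hε hε1 h).far hP
  have h2 : (0 : ℝ) < 2 ^ p.PP := by positivity
  rw [le_div_iff₀ h2]
  have e : 1 / (64 * 2 ^ q) * (2 : ℝ) ^ p.PP = 2 ^ p.PP / (64 * 2 ^ q) := by ring
  rw [e]
  unfold Prm.b0 Prm.b1
  linarith

end exports

end Vale.Agent.P065.H860
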